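import Vale.Agent.Lib.P230.Lin.Defs
import Vale.Agent.Lib.P230.Ball.Defs

/-!
# P230 variable loads: definitions.

Target: `Theta_L(n) ≤ n (log n)^(6/5)`. Sections smaller than the top section still have a void
bound, proportional to their volume: a section of volume `V₁ / 2^ℓ` has void `(1/2)^((m / 2^ℓ) / 4)`.
A vertex `q` of the cube at cost `∑ (a i - q i)² ≤ thr t ℓ` sits at level `≤ ℓ`.
-/

set_option autoImplicit false

open Finset

namespace Vale.Agent.Lib.P230.Soft

/-- The threshold of level `ℓ` for heights in cube coordinates. -/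
noncomputable def thr (t ℓ : ℕ) : ℝ := (1 / 8) * (t : ℝ) + (ℓ : ℝ) * (273 / 1000)

/-- Number of leaves guaranteed by `soft_leaf`, at the unit of level zero. -/
noncomputable def leafS (t : ℕ) : ℕ := ⌊(1 / 10 ^ 48 : ℝ) * (143 / 100) ^ t⌋₊

/-- The fine grid of centres: coordinates in `(1/2000) ℤ`, `|y|² ≤ (4001/4000)² t`. -/
noncomputable def fineGrid (t : ℕ) : Finset (Fin t → ℝ) :=
  open Classical in
  ((Fintype.piFinset fun _ : Fin t => Finset.Icc (-(2000 * (t : ℤ) + 1)) (2000 * (t : ℤ) + 1)).image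
    (fun k i => (k i : ℝ) / 2000)).filter (fun y => ∑ i, y i ^ 2 ≤ (4001 / 4000) ^ 2 * (t : ℝ))

end Vale.Agent.Lib.P230.Soft
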