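import Vale.Agent.Lib.P230.Soft.Defs
import Vale.Agent.Lib.P230.Lin.Base2
import Vale.Agent.Lib.P230.Ball.LeafCount
import Vale.Agent.Lib.P230.FineFinal

/-!
# P230 variable loads: statements of the modules (stubs; hand-ins must not import this file).
-/

set_option autoImplicit false

open MeasureTheory Finset
open scoped ENNReal Matrix

namespace Vale.Agent.Lib.P230.Soft

open Vale.Agent.Lib.P230 Vale.Agent.Lib.P230.Lin Vale.Agent.Lib.P230.LeafAux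

/-- MODULE S1 (Soft/Leaf.lean). For `a ∈ [0,1]^t` some level `ℓ ≤ t` has at least
`10^(-48) (143/100)^t 2^ℓ` vertices with `∑ (a i - q i)² ≤ thr t ℓ`.
Proof, rational only. `d = min(a i, 1 - a i) ∈ [0,1/2]`. Piece `d ≤ 1/4`: flip probability `p = 1/8`,
mean cost `≤ 1/8`, `k = 1`. Piece `1/4 < d ≤ 2/5`: `p = 13/40`, mean cost `≤ 9/40`, `k = 75`. Piece
`2/5 < d`: `p = 9/20`, mean cost `≤ 1/4`, `k = 94` (each mean cost is convex in `d`: check at the ends;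
weights `1-p` at the rounding of `a i`, `p` at the other bit as in `Ball/LeafCount`, `Lin43/LeafCount`).
Dominating weights `sh ≥ wt^(21/20)`, i.e. `wt^21 ≤ sh^20`, with `κ = ∑_b sh` per piece:
`κ^(-20) ≥ (143/100) * (10035/10000)^k` (numbers: `p=1/8: κ ≈ .98182`, `13/40: κ ≈ .96909`,
`9/20: κ ≈ .96616`; take 6 digits rounded up). Let `K = ∑_i k_i` and `ℓ = ⌈K/200⌉₊`, so `ℓ ≤ t`
(`k ≤ 94`, `4 ≤ t`) and `2^ℓ ≤ 2 (10035/10000)^K` because `(10035/10000)^200 ≥ 2`. Since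
`1/8 + (273/1000) k/200 ≥ (101/100) (mean cost of the piece)`, `thr t ℓ ≥ (101/100) ∑_i mean cost`, so
Markov gives weight `≥ 1/101` on the good vertices (if the mean is zero the good set is everything).
Young `w ≤ (20/21) s/ζ + (1/21) ζ^20` with `ζ = (40/21) S/P`, `P = 1/101`, `S = ∏ κ_i` gives
`N ≥ (21/2) P (21 P / (40 S))^20 ≥ 2.7e-5 P^21 ∏ κ_i^(-20) ≥ 2.7e-5 P^21 (143/100)^t (10035/10000)^K`,
and `2.7e-5 P^21 / 2 ≥ 10^(-48)`. -/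
theorem soft_leaf {t : ℕ} (ht : 4 ≤ t) (a : Fin t → ℝ) (ha : ∀ i, 0 ≤ a i ∧ a i ≤ 1) :
    ∃ ℓ : ℕ, ℓ ≤ t ∧ (1 / 10 ^ 48 : ℝ) * (143 / 100) ^ t * 2 ^ ℓ ≤
      ((univ.filter fun q : Fin t → Bool => ∑ i, (a i - bitv (q i)) ^ 2 ≤ thr t ℓ).card : ℝ) := by
  sorry

/-- MODULE S2a (Soft/Grid.lean): sed of `Ball/Grid.lean`, `200 → 2000`, `400 → 4000`. -/
theorem fineGrid_card (t : ℕ) : ((fineGrid t).card : ℝ) ≤ (4000 * (t : ℝ) + 3) ^ t := by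
  sorry

theorem fineGrid_dir {t : ℕ} (ht : 1 ≤ t) (b : Fin t → ℝ) (hb : ∑ i, b i ^ 2 = 1) :
    ∃ y ∈ fineGrid t, (3999 / 4000) * Real.sqrt t ≤ ∑ i, y i * b i := by
  sorry

/-- MODULE S2b (Soft/Window.lean): multi level version of `Ball/WindowBall.window_ball`.
`σ = 1/20000`, localisation radius `√t/2000`, so `exp(-R²/(2σ²)) = exp(-50 t)`.
For `ℓ ≤ t` let `r_ℓ² t = ((633/1000) t + (13823/10000) ℓ)/(499/500)`; centres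
`Y = ⋃_(ℓ ≤ t) r_ℓ • fineGrid t`, `|Y| ≤ (t+1) (4000 t + 3)^t`. On the band `1 ≤ κ²|x|² ≤ 201/200`,
`bumpMean ≥ qq^t exp(-|y|²/2)` with `qq = σ/√(σ²+201/200)`, and `|y|²≤ (4001/4000)² r_ℓ² t`, so
`|y|²/2 ≤ .50125 ((633/1000) t + (13823/10000) ℓ)`, and `.50125 * 1.3823 ≤ log 2`: the mean at level `ℓ` is
`≥ (1/2)^ℓ m₀`, `m₀ = qq^t exp(-.50125 * .633 t)`. All of it is `≥ (1/60000)^t`; `hnum` makes the error of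
`gaussian_bump` at most half of that. `bump_point` with `R = √t/2000` (`exp(-50 t) ≤ (1/60000)^t/8`) gives a point
`u` with `|u-y| ≤ R` and `A u ≥ (1/2)^ℓ V₀`, `V₀ = (m₀/8) v₁ / (√(2π) σ)^t`. In direction `b`:
`u·b ≥ (r 3999/4000 - 1/2000)√t ≥ √(499/500) r √t` because `r ≥ .79`. `ball_of_points` then gives the ball of
radius² `(633/1000) t + (13823/10000) ℓ`. Volume: `v₀/v₁ ≤ 2000000`, `√(2π)σ/qq * exp(.50125*.633) ≤ 3.452`. -/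
theorem window_soft {t d : ℕ} (ht : 4 ≤ t) (K₀ : Set (Fin (d + t) → ℝ)) (hc : Convex ℝ K₀)
    (hK : IsCompact K₀) (hvol : 0 < volume K₀)
    (hrad : ∀ x ∈ K₀, ∑ j, x j ^ 2 ≤ 10 * ((d + t : ℕ) : ℝ))
    (hiso : ∀ a : Fin (d + t) → ℝ,
      ∫ x in K₀, (a ⬝ᵥ x) ^ 2 ≤ (10 / 9) * (∑ j, a j ^ 2) * (volume K₀).toReal)
    (hmean : (((d + t : ℕ) : ℝ) / 61) * (volume K₀).toReal ≤ ∫ x in K₀, ∑ j, x j ^ 2)
    (hnum : 100000000 * (t : ℝ) ^ 2 * ((4000 * (t : ℝ) + 3) * 60000) ^ t ≤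
      Real.sqrt (Real.sqrt ((d + t : ℕ) : ℝ))) :
    ∃ (E : Matrix (Fin (d + t)) (Fin (d + t)) ℝ) (V₀ : ℝ), E.det ≠ 0 ∧ 0 < V₀ ∧
      (∀ ℓ : ℕ, ℓ ≤ t → ∀ z : Fin t → ℝ,
        ∑ i, z i ^ 2 ≤ (633 / 1000) * (t : ℝ) + (13823 / 10000) * (ℓ : ℝ) →
        V₀ * (1 / 2) ^ ℓ ≤ secVol (splitMap d t '' (E.mulVec '' K₀)) z) ∧
      (volume (splitMap d t '' (E.mulVec '' K₀))).toReal ≤ 16000000 * (3452 / 1000) ^ t * V₀ := by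
  sorry

/-- MODULE S3 (Soft/Base.lean): `base_hash2` with levels. Per set: level `ℓ = lev u`, `b = m / 2^ℓ`, `e = efin2 d - ℓ`.
Rerun of `Lin/Base2` with, at level `i = r+1` of the chain of `m` steps, `m'_i = b/i + 1`, `k_i = 2 m'_i`,
target sizes `2^(e+r-2) (1+ff r)`. `2^25 b ≤ 2^e`, so the moment step gives `(1/2)^(b/2)`; top step unchanged
since the fibre has `2^(e+m)` points (`4 (1/2)^m`); potential: `y' ≤ 2^(e+r'+3) ≤ 2^30 b 2^r'`, `j ≤ 2(b/r'+1)`,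
`fact_pow_bound` with one more power of `2`. So `E void ≤ 5 (1/2)^m + m (1/2)^(b/2)`, Markov with weight `(1/2)^(b/4)`,
union over `u` with `hU`, `hm`. `W`, `Q` may depend on `u`, `W₀` does not. -/
theorem base_hash_lev : ∃ d₀ : ℕ, ∀ d ≥ d₀, ∀ θ : ℝ, 0 < θ → ∃ W₀ : ℕ,
    ∀ (L : ℕ) (U : Type) [Fintype U] (lev : U → ℕ) (Afam : U → Finset (Fin d → ℤ)) (M : ℝ)
      (W Q : U → ℕ) (P : ℕ) [Fact P.Prime] (Y0 : Finset (Fin d → ℤ)),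
      (∀ u, lev u ≤ L) → 2 ^ (L + 7) ≤ mstar2 d →
      (Fintype.card U : ℝ) ≤ 2 ^ ((mstar2 d / 2 ^ L) / 16) →
      64 * (mstar2 d : ℝ) ≤ 2 ^ ((mstar2 d / 2 ^ L) / 16) →
      (∀ u, W₀ ≤ W u ∧ Q u ≤ W u ∧ W u ≤ Q u ^ 4) →
      (∀ u, Good (Afam u) (M / 2 ^ lev u) (W u) (Q u) (99 / 100) θ) →
      2 ^ (e02 d + 1) * (P : ℝ) ≤ M → M ≤ 2 ^ (e02 d + 2) * (P : ℝ) →
      (∀ y ∈ Y0, ∃ i, ¬ (P : ℤ) ∣ y i) → 8 * Y0.card ≤ P →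
      ∃ (r : Fin d → ZMod P) (ρ : Fin (mstar2 d) → Fin d → ZMod 2),
        (∀ y ∈ Y0, hash r ρ y ≠ 0) ∧
        ∀ u, (((univ.filter fun c : ZMod P × (Fin (mstar2 d) → ZMod 2) =>
            ∀ y ∈ Afam u, hash r ρ y ≠ c).card : ℝ) ≤
          (1 / 2 : ℝ) ^ ((mstar2 d / 2 ^ lev u) / 4) * ((P : ℝ) * 2 ^ mstar2 d)) := by
  sorry

/-- MODULE S4 (Soft/Select.lean): `select_R` of `Assembly2` with levels: apply `convex_good_of_T` to each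
subtype `{u // lev u = ℓ}`, `ℓ ≤ L`, with volume `V₁ / 2^ℓ`; `θ` = min of the `θ_ℓ` (`Good.dense` is monotone in `θ`);
`W u = W_(lev u) R`, `Q u = Q_(lev u) R`; the `∀ᶠ R` conjunction over the finitely many levels; the rest as in
`select_R` with `M = R^d V₁`. -/
theorem select_R_lev {d : ℕ} (hd : 2 ≤ d) {U : Type} [Finite U] (L : ℕ) (lev : U → ℕ)
    (hlev : ∀ u, lev u ≤ L) (B' : U → Set (Fin d → ℝ)) (V₁ : ℝ) (hV₁ : 0 < V₁)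
    (hc : ∀ u, Convex ℝ (B' u)) (hK : ∀ u, IsCompact (B' u))
    (hv : ∀ u, (volume (B' u)).toReal = V₁ / 2 ^ lev u)
    (C₁ C₀ : Set (Fin d → ℝ)) (hC₁c : Convex ℝ C₁) (hC₁K : IsCompact C₁)
    (hC₀c : Convex ℝ C₀) (hC₀K : IsCompact C₀) (v₁ v₀ : ℝ) (hv₁ : 0 < v₁) (hv₀ : 0 < v₀)
    (hvol1 : (volume C₁).toReal = v₁) (hvol0 : (volume C₀).toReal = v₀)
    (e : ℕ) (r : ℝ) (hr : 0 < r) (W₀fun : ℝ → ℕ) :
    ∃ (θ : ℝ) (R : ℕ) (W Q : U → ℕ) (P : ℕ), 0 < θ ∧ 0 < R ∧ P.Prime ∧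
      (∀ u, W₀fun θ ≤ W u ∧ Q u ≤ W u ∧ W u ≤ Q u ^ 4) ∧
      (∀ u, Good (lat (B' u) R) (((R : ℝ) ^ d * V₁) / 2 ^ lev u) (W u) (Q u) (99 / 100) θ) ∧
      2 ^ (e + 1) * (P : ℝ) ≤ (R : ℝ) ^ d * V₁ ∧ (R : ℝ) ^ d * V₁ ≤ 2 ^ (e + 2) * (P : ℝ) ∧
      (1 / 2) * v₁ * (R : ℝ) ^ d ≤ ((lat C₁ R).card : ℝ) ∧
      ((lat C₀ R).card : ℝ) ≤ 2 * v₀ * (R : ℝ) ^ d ∧ 1 / (R : ℝ) ≤ r ∧
      (∀ y ∈ lat C₀ R, y ≠ 0 → ∃ i, ¬ (P : ℤ) ∣ y i) := by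
  sorry

/-- MODULE S5 (Soft/Lattice.lean): copy of `Lin43/Lattice.lattice_data43`, `N = 2 n`, `δ = 1/n ≤ 10^(-5)`:
heights `u` with `∑ (u i/N)² ≤ thr t t`, `lev u` = least `ℓ` with `∑ (u i/N)² ≤ thr t ℓ`,
`body_family2` with `V₀ (1/2)^(lev u)` (dilation `(1-2δ)^(-2) ≤ 10001/10000`), `select_R_lev`, `base_hash_lev` with
`L = t`, `σ u = (1/2)^((m/2^(lev u))/4)` on the heights, `1` otherwise; `aux_win` from level `t`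
(`thr t t ≥ t/4`). `hcount` from `soft_leaf` with `a i = u i / N`: good vertices have level `≤ ℓ`;
`((m/2^ℓ)/4) * N_ℓ ≥ (m/16) * leafS t` because `N_ℓ ≥ leafS t * 2^ℓ`, and `(m/2^ℓ)/4 * 2^ℓ ≥ m/16` by `hm`. -/
theorem lattice_soft : ∃ d₀ : ℕ, ∀ d ≥ d₀, ∀ t n : ℕ, n = d + t → 100000 ≤ n → 4 ≤ t →
    2 ^ (t + 7) ≤ mstar2 d →
    ((4 * (n : ℝ)) ^ t ≤ 2 ^ ((mstar2 d / 2 ^ t) / 16)) →
    (64 * (mstar2 d : ℝ) ≤ 2 ^ ((mstar2 d / 2 ^ t) / 16)) →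
    (((4 * (n : ℝ)) ^ t) ^ (2 ^ t - 1) * ((1 / 2 : ℝ) ^ (mstar2 d / 16)) ^ (leafS t) <
      (1 / 2) * (1 / (4 * (n : ℝ))) ^ d) →
    ∀ K' : Set ((Fin d → ℝ) × (Fin t → ℝ)), Convex ℝ K' → IsCompact K' → ∀ V₀ : ℝ, 0 < V₀ →
    (∀ ℓ : ℕ, ℓ ≤ t → ∀ x : Fin t → ℝ, ∑ i, x i ^ 2 ≤ (10001 / 10000) * thr t ℓ →
      ENNReal.ofReal (V₀ * (1 / 2) ^ ℓ) ≤ volume {y : Fin d → ℝ | (y, x) ∈ K'}) →
    ∃ (B : Matrix (Fin d ⊕ Fin t) (Fin d ⊕ Fin t) ℤ) (R : ℕ), 0 < R ∧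
      (∀ x : (Fin d → ℝ) × (Fin t → ℝ), ∃ k : Fin d ⊕ Fin t → ℤ,
        (x.1 - (fun i => ((B.mulVec k (Sum.inl i) : ℤ) : ℝ) / R),
          x.2 - (fun i => ((B.mulVec k (Sum.inr i) : ℤ) : ℝ))) ∈ K') ∧
      (R : ℝ) ^ d * ((1 - 2 / (n : ℝ)) ^ d * V₀) / 2 ^ (efin2 d + 2) ≤ |(B.det : ℝ)| := by
  sorry

/-- MODULE S6 (Soft/Params.lean): copy of `Lin43/Params.params43`. `t` least with
`(143/100)^t ≥ 10^60 * L`, `L = clog 2 (4 n)`. Loss `w = (3452/1000)/(9/4) = 3452/2250`;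
`(3452/2250)^500 ≤ (143/100)^599`, `599/500 < 6/5`. -/
theorem params_soft (d₀ : ℕ) : ∃ n₀ : ℕ, ∀ n ≥ n₀, ∃ d t : ℕ,
    d + t = n ∧ 4 ≤ t ∧ d₀ ≤ d ∧ 100000 ≤ n ∧
    2 ^ (t + 7) ≤ mstar2 d ∧
    ((4 * (n : ℝ)) ^ t ≤ 2 ^ ((mstar2 d / 2 ^ t) / 16)) ∧
    (64 * (mstar2 d : ℝ) ≤ 2 ^ ((mstar2 d / 2 ^ t) / 16)) ∧
    (((4 * (n : ℝ)) ^ t) ^ (2 ^ t - 1) * ((1 / 2 : ℝ) ^ (mstar2 d / 16)) ^ (leafS t) <
      (1 / 2) * (1 / (4 * (n : ℝ))) ^ d) ∧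
    (100000000 * (t : ℝ) ^ 2 * ((4000 * (t : ℝ) + 3) * 60000) ^ t ≤ Real.sqrt (Real.sqrt n)) ∧
    ((10 / 9) * (16000000 * (3452 / 2250) ^ t) * ((1 - 2 / (n : ℝ))⁻¹) ^ d * 2 ^ (efin2 d + 2) ≤
      (n : ℝ) * (Real.log n) ^ (6 / 5 : ℝ)) := by
  sorry

end Vale.Agent.Lib.P230.Soft
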